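import Vale.Agent.Helper4.KTVG.Assembly

/-!
# P335, general graphs: from `KTVG.GapStmt` to the statements on `Realization n d`

* `real_gap_of_gapStmt` : the Poincare inequality on the subtype `Realization n d`
                          for mean-zero functions;
* `general_gap`         : the same for arbitrary functions (deviation from the mean);
* `general_tmix`, `general_tv` : the mixing bounds of the switch chain.
-/

set_option linter.unusedSectionVars false

namespace KTVG

open Finset Vale.Agent.Helper13.Switch
open Classical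

variable {n : ℕ}

/-- sums over `gOmega n d` are sums over the subtype `Realization n d` -/
theorem sum_gOmega (d : Fin n → ℕ) (F : SimpleGraph (Fin n) → ℝ) :
    ∑ G ∈ gOmega n d, F G = ∑ G : Realization n d, F G.1 :=
  Finset.sum_subtype (gOmega n d) (fun _ => mem_gOmega) F

/-- the Poincare inequality on `Realization n d` for mean-zero functions -/
theorem real_gap_of_gapStmt {d : Fin n → ℕ} (h : GapStmt n d) (g : Realization n d → ℝ)
    (hg : ∑ G, g G = 0) :
    2 * ∑ G, g G ^ 2 ≤ (1 / 2 : ℝ) * ∑ G : Realization n d, ∑ G' : Realization n d,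
      (if IsSwitch G.1 G'.1 then (g G - g G') ^ 2 else 0) := by
  set f : SimpleGraph (Fin n) → ℝ :=
    fun G => if hG : ∀ i, G.degree i = d i then g ⟨G, hG⟩ else 0 with hf
  have hfg : ∀ G : Realization n d, f G.1 = g G := by
    intro G
    rw [hf]
    simp only
    rw [dif_pos G.2]
  have hsum0 : ∑ G ∈ gOmega n d, f G = 0 := by
    rw [sum_gOmega, Finset.sum_congr rfl fun G _ => hfg G, hg]
  have hsq : KTV.sqDev (gOmega n d) f = ∑ G, g G ^ 2 := by
    unfold KTV.sqDev
    rw [hsum0, zero_div, sum_gOmega]
    refine Finset.sum_congr rfl fun G _ => ?_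
    rw [hfg, sub_zero]
  have hdir : KTV.dirichlet (gOmega n d) IsSwitch f
      = ∑ G : Realization n d, ∑ G' : Realization n d,
          (if IsSwitch G.1 G'.1 then (g G - g G') ^ 2 else 0) := by
    rw [KTV.dirichlet_eq_ite, sum_gOmega]
    refine Finset.sum_congr rfl fun G _ => ?_
    rw [sum_gOmega]
    refine Finset.sum_congr rfl fun G' _ => ?_
    rw [hfg, hfg]
  have := h f
  rw [hsq, hdir] at this
  linarith

/-- the second Laplacian eigenvalue of the switch graph is at least `2` -/
theorem general_gap {d : Fin n → ℕ} (h : GapStmt n d) (g : Realization n d → ℝ) :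
    2 * ∑ G : Realization n d,
        (g G - (∑ H : Realization n d, g H) / (Fintype.card (Realization n d) : ℝ)) ^ 2
      ≤ (1 / 2 : ℝ) * ∑ G : Realization n d, ∑ G' : Realization n d,
          (if IsSwitch G.1 G'.1 then (g G - g G') ^ 2 else 0) := by
  set m : ℝ := (∑ H : Realization n d, g H) / (Fintype.card (Realization n d) : ℝ) with hm
  have hmean : ∑ G : Realization n d, (g G - m) = 0 := by
    rw [Finset.sum_sub_distrib, Finset.sum_const, nsmul_eq_mul, Finset.card_univ]
    by_cases hN : (Fintype.card (Realization n d) : ℝ) = 0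
    · have hempty : IsEmpty (Realization n d) := by
        rw [← Fintype.card_eq_zero_iff]
        exact_mod_cast hN
      simp
    · rw [hm]; field_simp; ring
  have h1 := real_gap_of_gapStmt h (fun G => g G - m) hmean
  have e : ∀ G G' : Realization n d,
      (if IsSwitch G.1 G'.1 then (g G - m - (g G' - m)) ^ 2 else 0)
        = (if IsSwitch G.1 G'.1 then (g G - g G') ^ 2 else 0) := by
    intro G G'
    split_ifs
    · ring
    · rfl
  simp only [e] at h1
  exact h1

/-- the mixing time of the switch chain is at most `6 * C(n,4) * n ^ 2` -/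
theorem general_tmix (hn : 4 ≤ n) {d : Fin n → ℕ} (h : GapStmt n d) :
    tmix n d ≤ 6 * n.choose 4 * n ^ 2 := by
  have h1 := tmix_poly_of_gap hn d 2 (by norm_num) (real_gap_of_gapStmt h)
  refine h1.trans ?_
  rw [Nat.ceil_le]
  push_cast
  have : (12 : ℝ) * (n.choose 4 : ℝ) * (n : ℝ) ^ 2 / 2 = 6 * (n.choose 4 : ℝ) * (n : ℝ) ^ 2 := by
    ring
  rw [this]

/-- every `t ≥ 6 * C(n,4) * n ^ 2` steps of the switch chain bring it within total
variation distance `1/4` of uniform, from every start -/
theorem general_tv (hn : 4 ≤ n) {d : Fin n → ℕ} (h : GapStmt n d)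
    (t : ℕ) (ht : 6 * n.choose 4 * n ^ 2 ≤ t) (G : Realization n d) :
    (1 / 2 : ℝ) * ∑ G' : Realization n d,
      |(switchChain n d ^ t) G G' - 1 / (Fintype.card (Realization n d) : ℝ)| ≤ 1 / 4 := by
  apply tv_poly_of_gap hn d 2 (by norm_num) (real_gap_of_gapStmt h)
  have h1 : ((6 * n.choose 4 * n ^ 2 : ℕ) : ℝ) ≤ (t : ℝ) := by exact_mod_cast ht
  push_cast at h1
  linarith

end KTVG
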