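import Vale.Agent.Helper4.KTVG.Glue
import Vale.Agent.Helper16.KTVG.Plan
import Vale.Agent.Helper13.SwitchChain

/-!
# P335, general graphs: the count of the blocks of a switch and the assembly (module M8)

* `count_stmt`     : `KTVG.CountStmt n d` (every ordered switch pair is the block switch of
                     at most eight ordered 4-tuples; block switches are switches);
* `gap_of_modules` : the module statements of `Vale.Agent.Helper16.KTVG.Plan` give
                     `KTVG.GapStmt n d`.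
-/

set_option linter.unusedSectionVars false

namespace KTVG

open Finset Vale.Agent.Helper13.Switch
open Classical

variable {n : ℕ}

/-- **M8 (count).** -/
theorem count_stmt (n : ℕ) (d : Fin n → ℕ) : CountStmt n d := by
  intro G _ G' _
  by_cases hs : IsSwitch G G'
  · rw [if_pos hs]
    obtain ⟨a, b, c, e, hab, hac, hae, hbc, hbe, hce, hA, rfl⟩ := hs
    have hsum : (∑ u : Fin n, ∑ v : Fin n, ∑ w : Fin n, ∑ z : Fin n,
        if D4 u v w z ∧ SwBrel u v w z G (switchGraph G a b c e) then (1 : ℝ) else 0)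
        = ∑ p : Fin n × Fin n × Fin n × Fin n,
            if D4 p.1 p.2.1 p.2.2.1 p.2.2.2
              ∧ SwBrel p.1 p.2.1 p.2.2.1 p.2.2.2 G (switchGraph G a b c e) then (1 : ℝ)
            else 0 := by
      simp only [Fintype.sum_prod_type]
    rw [hsum, Finset.sum_boole]
    have hsub : (Finset.univ.filter fun p : Fin n × Fin n × Fin n × Fin n =>
        D4 p.1 p.2.1 p.2.2.1 p.2.2.2
          ∧ SwBrel p.1 p.2.1 p.2.2.1 p.2.2.2 G (switchGraph G a b c e))
        ⊆ ([(a, e, b, c), (b, c, a, e), (c, b, e, a), (e, a, c, b),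
            (a, e, c, b), (b, c, e, a), (c, b, a, e), (e, a, b, c)] :
              List (Fin n × Fin n × Fin n × Fin n)).toFinset := by
      rintro ⟨u, v, w, z⟩ hp
      simp only [Finset.mem_filter, Finset.mem_univ, true_and] at hp
      obtain ⟨⟨h1, h2, h3, h4, h5, h6⟩, hsw⟩ := hp
      simp only [List.mem_toFinset, List.mem_cons, List.not_mem_nil, or_false, Prod.mk.injEq]
      rcases hsw with ⟨hal, he⟩ | ⟨hal, he⟩
      · have key := allowed_same_target hab hac hae hbc hbe hce h2 h3 h1 h6 h4.symm h5.symm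
          hA hal he.symm
        rcases key with ⟨e1, e2, e3, e4⟩ | ⟨e1, e2, e3, e4⟩ | ⟨e1, e2, e3, e4⟩ |
          ⟨e1, e2, e3, e4⟩
        · exact Or.inl ⟨e1, e4, e2, e3⟩
        · exact Or.inr (Or.inl ⟨e1, e4, e2, e3⟩)
        · exact Or.inr (Or.inr (Or.inl ⟨e1, e4, e2, e3⟩))
        · exact Or.inr (Or.inr (Or.inr (Or.inl ⟨e1, e4, e2, e3⟩)))
      · have key := allowed_same_target hab hac hae hbc hbe hce h3 h2 h1 h6.symm h5.symm
          h4.symm hA hal he.symm
        rcases key with ⟨e1, e2, e3, e4⟩ | ⟨e1, e2, e3, e4⟩ | ⟨e1, e2, e3, e4⟩ |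
          ⟨e1, e2, e3, e4⟩
        · exact Or.inr (Or.inr (Or.inr (Or.inr (Or.inl ⟨e1, e4, e3, e2⟩))))
        · exact Or.inr (Or.inr (Or.inr (Or.inr (Or.inr (Or.inl ⟨e1, e4, e3, e2⟩)))))
        · exact Or.inr (Or.inr (Or.inr (Or.inr (Or.inr (Or.inr (Or.inl ⟨e1, e4, e3, e2⟩))))))
        · exact Or.inr (Or.inr (Or.inr (Or.inr (Or.inr (Or.inr (Or.inr ⟨e1, e4, e3, e2⟩))))))
    have hcard := (Finset.card_le_card hsub).trans (List.toFinset_card_le _)
    have h8 : ([(a, e, b, c), (b, c, a, e), (c, b, e, a), (e, a, c, b),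
        (a, e, c, b), (b, c, e, a), (c, b, a, e), (e, a, b, c)] :
          List (Fin n × Fin n × Fin n × Fin n)).length = 8 := rfl
    rw [h8] at hcard
    exact_mod_cast hcard
  · rw [if_neg hs]
    apply le_of_eq
    refine Finset.sum_eq_zero fun u _ => Finset.sum_eq_zero fun v _ =>
      Finset.sum_eq_zero fun w _ => Finset.sum_eq_zero fun z _ => ?_
    rw [if_neg]
    rintro ⟨⟨h1, h2, h3, h4, h5, h6⟩, hsw⟩
    apply hs
    rcases hsw with ⟨hal, he⟩ | ⟨hal, he⟩
    · exact ⟨u, w, z, v, h2, h3, h1, h6, h4.symm, h5.symm, hal, he⟩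
    · exact ⟨u, z, w, v, h3, h2, h1, h6.symm, h5.symm, h4.symm, hal, he⟩

theorem D4_iff (u v w z : Fin n) : KTV.G4.D4 u v w z ↔ D4 u v w z := Iff.rfl

theorem ite_D4 {α : Type*} (u v w z : Fin n) (a b : α) :
    (if KTV.G4.D4 u v w z then a else b) = (if D4 u v w z then a else b) := by
  by_cases h : D4 u v w z
  · rw [if_pos h, if_pos ((D4_iff u v w z).2 h)]
  · rw [if_neg h, if_neg (fun h' => h ((D4_iff u v w z).1 h'))]

theorem ite_D4_and {α : Type*} (u v w z : Fin n) (P : Prop) (a b : α) :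
    (if KTV.G4.D4 u v w z ∧ P then a else b) = (if D4 u v w z ∧ P then a else b) := by
  by_cases h : D4 u v w z ∧ P
  · rw [if_pos h, if_pos (⟨(D4_iff u v w z).2 h.1, h.2⟩ : KTV.G4.D4 u v w z ∧ P)]
  · rw [if_neg h, if_neg (fun h' : KTV.G4.D4 u v w z ∧ P => h ⟨(D4_iff u v w z).1 h'.1, h'.2⟩)]

/-- **Assembly.**  The module statements give the Poincare inequality with constant `4`
for the ordered switch energy. -/
theorem gap_of_modules {d : Fin n → ℕ} (hT : TriStmt n d) (hP : PairStmt n d)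
    (hJ : JohnsonStmt n d) (hK : KerStmt n d) (hC : CountStmt n d) : GapStmt n d := by
  intro f
  refine KTV.G4.general_poincare (gOmega n d) labP IsSwitch SwBrel
    (fun u v w z f => charge (gOmega n d) u v w z f) ?_ ?_ ?_ ?_ ?_ ?_ ?_ f
  · intro u v g x _
    rw [labP_comm u v]
  · exact hT
  · intro u v w z hd g
    exact hP u v w z ((D4_iff u v w z).1 hd) g
  · intro u v w z g
    unfold charge
    exact Finset.sum_nonneg fun _ _ => sq_nonneg _
  · intro u v huv g
    simp only [ite_D4]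
    exact hJ u v huv g
  · intro x hx y hy
    simp only [ite_D4_and]
    exact hC x hx y hy
  · exact hK

end KTVG
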