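import Vale.Agent.Helper16.KTV.Poincare
import Vale.Agent.Helper19.KTV.GenCaputo

/-!
# P335, general graphs: abstract summation and glue (module M8)

Model-independent skeleton.  `Ω` is the state space, `lab u v` the label of the pair
heat bath of the vertex pair `{u, v}` (so `E_uv f = cexpL Ω (lab u v) f`), `R` the switch
relation, `B u v w z` the block switch relation of the `2 × 2` block `{u, v} × {w, z}`
and `C u v w z f` the charge of the pair `{w, z}` on the fibres of `{u, v}`.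

From the triangle lemma, the disjoint-pair inequality, the Johnson inequality for the
charges, the count of the blocks of a switch and the description of the kernel, the
theorem `general_poincare` derives `4 * sqDev Ω f ≤ dirichlet Ω R f`.
-/

set_option linter.unusedSectionVars false

namespace KTV

namespace G4

open Finset Matrix

section Tuples

variable {V : Type*} [Fintype V] [DecidableEq V]

/-- four pairwise distinct indices -/
def D4 (u v w z : V) : Prop := u ≠ v ∧ u ≠ w ∧ u ≠ z ∧ v ≠ w ∧ v ≠ z ∧ w ≠ z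

instance (u v w z : V) : Decidable (D4 u v w z) := by unfold D4; infer_instance

theorem D4.swap {u v w z : V} (h : D4 u v w z) : D4 w z u v := by
  obtain ⟨h1, h2, h3, h4, h5, h6⟩ := h
  exact ⟨h6, h2.symm, h4.symm, h3.symm, h5.symm, h1⟩

theorem D4_swap_iff (u v w z : V) : D4 u v w z ↔ D4 w z u v := ⟨D4.swap, D4.swap⟩

/-- the sum of `F` over the ordered 4-tuples of pairwise distinct indices -/
def T4 (F : V → V → V → V → ℝ) : ℝ :=
  ∑ u, ∑ v, ∑ w, ∑ z, if D4 u v w z then F u v w z else 0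

theorem T4_mono {F G : V → V → V → V → ℝ}
    (h : ∀ u v w z, D4 u v w z → F u v w z ≤ G u v w z) : T4 F ≤ T4 G := by
  unfold T4
  refine Finset.sum_le_sum fun u _ => Finset.sum_le_sum fun v _ => Finset.sum_le_sum fun w _ =>
    Finset.sum_le_sum fun z _ => ?_
  split_ifs with hd
  · exact h u v w z hd
  · exact le_refl _

theorem T4_lin (a b c : ℝ) (F G H : V → V → V → V → ℝ) :
    T4 (fun u v w z => a * F u v w z + b * G u v w z + c * H u v w z)
      = a * T4 F + b * T4 G + c * T4 H := by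
  unfold T4
  simp only [Finset.mul_sum, ← Finset.sum_add_distrib]
  refine Finset.sum_congr rfl fun u _ => Finset.sum_congr rfl fun v _ =>
    Finset.sum_congr rfl fun w _ => Finset.sum_congr rfl fun z _ => ?_
  split_ifs <;> ring

theorem sum4_comm (G : V → V → V → V → ℝ) :
    ∑ u, ∑ v, ∑ w, ∑ z, G u v w z = ∑ w, ∑ z, ∑ u, ∑ v, G u v w z := by
  calc ∑ u, ∑ v, ∑ w, ∑ z, G u v w z = ∑ u, ∑ w, ∑ v, ∑ z, G u v w z :=
        Finset.sum_congr rfl (fun u _ => Finset.sum_comm)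
    _ = ∑ w, ∑ u, ∑ v, ∑ z, G u v w z := Finset.sum_comm
    _ = ∑ w, ∑ u, ∑ z, ∑ v, G u v w z :=
        Finset.sum_congr rfl (fun w _ => Finset.sum_congr rfl (fun u _ => Finset.sum_comm))
    _ = ∑ w, ∑ z, ∑ u, ∑ v, G u v w z := Finset.sum_congr rfl (fun w _ => Finset.sum_comm)

theorem T4_swap (F : V → V → V → V → ℝ) : T4 (fun u v w z => F w z u v) = T4 F := by
  unfold T4
  rw [sum4_comm]
  refine Finset.sum_congr rfl fun w _ => Finset.sum_congr rfl fun z _ =>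
    Finset.sum_congr rfl fun u _ => Finset.sum_congr rfl fun v _ => ?_
  by_cases hd : D4 u v w z
  · rw [if_pos hd, if_pos hd.swap]
  · rw [if_neg hd, if_neg (fun h => hd h.swap)]

theorem T4_split (F : V → V → V → V → ℝ) :
    T4 F = ∑ u, ∑ v ∈ univ.erase u, ∑ w, ∑ z, if D4 u v w z then F u v w z else 0 := by
  unfold T4
  refine Finset.sum_congr rfl fun u _ => ?_
  rw [← Finset.add_sum_erase univ _ (Finset.mem_univ u)]
  have h0 : (∑ w, ∑ z, if D4 u u w z then F u u w z else 0) = 0 := by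
    refine Finset.sum_eq_zero fun w _ => Finset.sum_eq_zero fun z _ => ?_
    rw [if_neg]
    exact fun h => h.1 rfl
  rw [h0, zero_add]

end Tuples

section Tuples2

variable {V : Type*} [Fintype V] [DecidableEq V]

theorem T4_sum {ι : Type*} (s : Finset ι) (H : V → V → V → V → ι → ℝ) :
    T4 (fun u v w z => ∑ x ∈ s, H u v w z x) = ∑ x ∈ s, T4 (fun u v w z => H u v w z x) := by
  unfold T4
  have e : ∀ u v w z, (if D4 u v w z then ∑ x ∈ s, H u v w z x else 0)
      = ∑ x ∈ s, if D4 u v w z then H u v w z x else 0 := by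
    intro u v w z
    split_ifs <;> simp
  simp only [e]
  calc ∑ u, ∑ v, ∑ w, ∑ z, ∑ x ∈ s, (if D4 u v w z then H u v w z x else 0)
      = ∑ u, ∑ v, ∑ w, ∑ x ∈ s, ∑ z, (if D4 u v w z then H u v w z x else 0) :=
        Finset.sum_congr rfl fun u _ => Finset.sum_congr rfl fun v _ =>
          Finset.sum_congr rfl fun w _ => Finset.sum_comm
    _ = ∑ u, ∑ v, ∑ x ∈ s, ∑ w, ∑ z, (if D4 u v w z then H u v w z x else 0) :=
        Finset.sum_congr rfl fun u _ => Finset.sum_congr rfl fun v _ => Finset.sum_comm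
    _ = ∑ u, ∑ x ∈ s, ∑ v, ∑ w, ∑ z, (if D4 u v w z then H u v w z x else 0) :=
        Finset.sum_congr rfl fun u _ => Finset.sum_comm
    _ = ∑ x ∈ s, ∑ u, ∑ v, ∑ w, ∑ z, (if D4 u v w z then H u v w z x else 0) :=
        Finset.sum_comm

theorem T4_ite_mul (P : V → V → V → V → Prop) [∀ u v w z, Decidable (P u v w z)] (c : ℝ) :
    T4 (fun u v w z => if P u v w z then c else 0)
      = (∑ u, ∑ v, ∑ w, ∑ z, if D4 u v w z ∧ P u v w z then (1 : ℝ) else 0) * c := by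
  unfold T4
  simp only [Finset.sum_mul]
  refine Finset.sum_congr rfl fun u _ => Finset.sum_congr rfl fun v _ =>
    Finset.sum_congr rfl fun w _ => Finset.sum_congr rfl fun z _ => ?_
  by_cases h1 : D4 u v w z <;> by_cases h2 : P u v w z <;> simp [h1, h2]

end Tuples2

section Mat

variable {X V Λ : Type*} [DecidableEq X] [Fintype V] [DecidableEq V] [DecidableEq Λ]

/-- the projection `I - E_uv` as a matrix on `Ω` -/
noncomputable def QG (Ω : Finset X) (lab : V → V → X → Λ) (u v : V) : Matrix Ω Ω ℝ :=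
  1 - PM Ω (lab u v)

theorem QG_mulVec (Ω : Finset X) (lab : V → V → X → Λ) (u v : V) (f : X → ℝ) :
    QG Ω lab u v *ᵥ vec Ω f = vec Ω (fun x => f x - cexpL Ω (lab u v) f x) := by
  unfold QG
  rw [Matrix.sub_mulVec, Matrix.one_mulVec, PM_mulVec]
  funext x
  simp only [Pi.sub_apply, vec]

theorem QG_transpose (Ω : Finset X) (lab : V → V → X → Λ) (u v : V) :
    (QG Ω lab u v).transpose = QG Ω lab u v := by
  unfold QG
  rw [Matrix.transpose_sub, Matrix.transpose_one, PM_transpose]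

theorem QG_idem (Ω : Finset X) (lab : V → V → X → Λ) (u v : V) :
    QG Ω lab u v * QG Ω lab u v = QG Ω lab u v := by
  unfold QG
  rw [sub_mul, mul_sub, mul_sub, PM_idem]
  simp

theorem QG_symm (Ω : Finset X) (lab : V → V → X → Λ)
    (hsymm : ∀ u v (f : X → ℝ) (x : X), x ∈ Ω →
      cexpL Ω (lab u v) f x = cexpL Ω (lab v u) f x) (u v : V) :
    QG Ω lab u v = QG Ω lab v u := by
  have hP : PM Ω (lab u v) = PM Ω (lab v u) := by
    apply Matrix.mulVec_injective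
    funext w
    rw [← vec_ext0 Ω w, PM_mulVec, PM_mulVec]
    funext x
    exact hsymm u v _ x.1 x.2
  unfold QG
  rw [hP]

/-- `⟨Q_uv f, Q_wz f⟩` in function form -/
theorem QG_cross (Ω : Finset X) (lab : V → V → X → Λ) (u v w z : V) (f : X → ℝ) :
    (QG Ω lab u v *ᵥ vec Ω f) ⬝ᵥ (QG Ω lab w z *ᵥ vec Ω f)
      = ∑ x ∈ Ω, (f x - cexpL Ω (lab u v) f x) * (f x - cexpL Ω (lab w z) f x) := by
  rw [QG_mulVec, QG_mulVec, vec_dot]

/-- `⟨f, Q_uv f⟩ = |Q_uv f|^2` in function form -/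
theorem QG_quad (Ω : Finset X) (lab : V → V → X → Λ) (u v : V) (f : X → ℝ) :
    vec Ω f ⬝ᵥ (QG Ω lab u v *ᵥ vec Ω f)
      = ∑ x ∈ Ω, (f x - cexpL Ω (lab u v) f x) ^ 2 := by
  rw [QG_mulVec, vec_dot]
  have h1 : ∀ x ∈ Ω, f x * (f x - cexpL Ω (lab u v) f x)
      = f x ^ 2 - f x * cexpL Ω (lab u v) f x := by
    intro x _; ring
  rw [Finset.sum_congr rfl h1, sum_sub_cexpL_sq, Finset.sum_sub_distrib, sum_mul_cexpL]

theorem QG_tri (Ω : Finset X) (lab : V → V → X → Λ)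
    (htri : ∀ u v w : V, u ≠ v → u ≠ w → v ≠ w → ∀ f : X → ℝ,
      ∑ x ∈ Ω, f x * (3 * f x - cexpL Ω (lab u v) f x - cexpL Ω (lab u w) f x
          - cexpL Ω (lab v w) f x)
        ≤ ∑ x ∈ Ω, (3 * f x - cexpL Ω (lab u v) f x - cexpL Ω (lab u w) f x
          - cexpL Ω (lab v w) f x) ^ 2)
    {i j k : V} (hij : i ≠ j) (hik : i ≠ k) (hjk : j ≠ k) (v : Ω → ℝ) :
    v ⬝ᵥ ((QG Ω lab i j + QG Ω lab i k + QG Ω lab j k) *ᵥ v) ≤
      ((QG Ω lab i j + QG Ω lab i k + QG Ω lab j k) *ᵥ v) ⬝ᵥ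
        ((QG Ω lab i j + QG Ω lab i k + QG Ω lab j k) *ᵥ v) := by
  rw [← vec_ext0 Ω v]
  set f := ext0 Ω v with hf
  have hA : (QG Ω lab i j + QG Ω lab i k + QG Ω lab j k) *ᵥ vec Ω f
      = vec Ω (fun x => 3 * f x - cexpL Ω (lab i j) f x - cexpL Ω (lab i k) f x
          - cexpL Ω (lab j k) f x) := by
    rw [Matrix.add_mulVec, Matrix.add_mulVec, QG_mulVec, QG_mulVec, QG_mulVec]
    funext x
    simp only [Pi.add_apply, vec]
    ring
  rw [hA, vec_dot, vec_dot]
  calc ∑ x ∈ Ω, f x * (3 * f x - cexpL Ω (lab i j) f x - cexpL Ω (lab i k) f x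
          - cexpL Ω (lab j k) f x) ≤ _ := htri i j k hij hik hjk f
    _ = _ := Finset.sum_congr rfl fun x _ => by ring

/-- the sum of the pair projections over all ordered pairs of distinct vertices -/
noncomputable def LG (Ω : Finset X) (lab : V → V → X → Λ) : Matrix Ω Ω ℝ :=
  ∑ i, ∑ j ∈ univ.erase i, QG Ω lab i j

theorem LG_transpose (Ω : Finset X) (lab : V → V → X → Λ) :
    (LG Ω lab).transpose = LG Ω lab := by
  unfold LG
  rw [Matrix.transpose_sum]
  apply Finset.sum_congr rfl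
  intro i _
  rw [Matrix.transpose_sum]
  exact Finset.sum_congr rfl fun j _ => QG_transpose Ω lab i j

theorem LG_quad (Ω : Finset X) (lab : V → V → X → Λ) (f : X → ℝ) :
    vec Ω f ⬝ᵥ (LG Ω lab *ᵥ vec Ω f)
      = ∑ i, ∑ j ∈ univ.erase i, ∑ x ∈ Ω, (f x - cexpL Ω (lab i j) f x) ^ 2 := by
  unfold LG
  rw [Matrix.sum_mulVec, dotProduct_sum]
  apply Finset.sum_congr rfl
  intro i _
  rw [Matrix.sum_mulVec, dotProduct_sum]
  exact Finset.sum_congr rfl fun j _ => QG_quad Ω lab i j f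

end Mat

section Main

variable {X V Λ : Type*} [DecidableEq X] [Fintype V] [DecidableEq V] [DecidableEq Λ]

/-- Step A: the disjoint-pair inequality and the Johnson inequality for the charges give
`D ≥ 2 L` (tuple normalisation). -/
theorem disjoint_sum_ge (Ω : Finset X) (lab : V → V → X → Λ)
    (B : V → V → V → V → X → X → Prop) (C : V → V → V → V → (X → ℝ) → ℝ)
    (hpair : ∀ u v w z : V, D4 u v w z → ∀ f : X → ℝ,
      (1 / 2) * dirichlet Ω (B u v w z) f - C u v w z f - C w z u v f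
        ≤ 2 * ∑ x ∈ Ω, (f x - cexpL Ω (lab u v) f x) * (f x - cexpL Ω (lab w z) f x))
    (hJ : ∀ u v : V, u ≠ v → ∀ f : X → ℝ,
      (∑ w, ∑ z, if D4 u v w z then C u v w z f else 0)
        ≤ (1 / 4) * (∑ w, ∑ z, if D4 u v w z then dirichlet Ω (B u v w z) f else 0)
          - 2 * ∑ x ∈ Ω, (f x - cexpL Ω (lab u v) f x) ^ 2)
    (f : X → ℝ) :
    2 * ∑ u, ∑ v ∈ univ.erase u, ∑ x ∈ Ω, (f x - cexpL Ω (lab u v) f x) ^ 2
      ≤ T4 (fun u v w z =>
          ∑ x ∈ Ω, (f x - cexpL Ω (lab u v) f x) * (f x - cexpL Ω (lab w z) f x)) := by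
  set Sd : V → V → V → V → ℝ := fun u v w z => dirichlet Ω (B u v w z) f with hSd
  set Cc : V → V → V → V → ℝ := fun u v w z => C u v w z f with hCc
  set cr : V → V → V → V → ℝ := fun u v w z =>
    ∑ x ∈ Ω, (f x - cexpL Ω (lab u v) f x) * (f x - cexpL Ω (lab w z) f x) with hcr
  set n2 : V → V → ℝ := fun u v => ∑ x ∈ Ω, (f x - cexpL Ω (lab u v) f x) ^ 2 with hn2
  have h1 : T4 (fun u v w z => (1 / 2) * Sd u v w z + (-1) * Cc u v w z + (-1) * Cc w z u v)
      ≤ T4 (fun u v w z => 2 * cr u v w z + 0 * cr u v w z + 0 * cr u v w z) := by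
    apply T4_mono
    intro u v w z hd
    have := hpair u v w z hd f
    simp only [hSd, hCc, hcr]
    linarith
  rw [T4_lin, T4_lin, T4_swap Cc] at h1
  have h2 : T4 Cc ≤ (1 / 4) * T4 Sd - 2 * ∑ u, ∑ v ∈ univ.erase u, n2 u v := by
    rw [T4_split Cc, T4_split Sd, Finset.mul_sum, Finset.mul_sum, ← Finset.sum_sub_distrib]
    apply Finset.sum_le_sum
    intro u _
    rw [Finset.mul_sum, Finset.mul_sum, ← Finset.sum_sub_distrib]
    apply Finset.sum_le_sum
    intro v hv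
    have huv : u ≠ v := fun h => (Finset.mem_erase.mp hv).1 h.symm
    exact hJ u v huv f
  linarith

open Classical in
/-- Step B: the pair Dirichlet forms are dominated by the switch Dirichlet form. -/
theorem pair_sum_le (Ω : Finset X) (lab : V → V → X → Λ) (R : X → X → Prop)
    (B : V → V → V → V → X → X → Prop) (C : V → V → V → V → (X → ℝ) → ℝ)
    (hC0 : ∀ u v w z : V, ∀ f : X → ℝ, 0 ≤ C u v w z f)
    (hJ : ∀ u v : V, u ≠ v → ∀ f : X → ℝ,
      (∑ w, ∑ z, if D4 u v w z then C u v w z f else 0)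
        ≤ (1 / 4) * (∑ w, ∑ z, if D4 u v w z then dirichlet Ω (B u v w z) f else 0)
          - 2 * ∑ x ∈ Ω, (f x - cexpL Ω (lab u v) f x) ^ 2)
    (hcnt : ∀ x ∈ Ω, ∀ y ∈ Ω,
      (∑ u, ∑ v, ∑ w, ∑ z, if D4 u v w z ∧ B u v w z x y then (1 : ℝ) else 0)
        ≤ if R x y then 8 else 0)
    (f : X → ℝ) :
    ∑ u, ∑ v ∈ univ.erase u, ∑ x ∈ Ω, (f x - cexpL Ω (lab u v) f x) ^ 2
      ≤ dirichlet Ω R f := by
  set Sd : V → V → V → V → ℝ := fun u v w z => dirichlet Ω (B u v w z) f with hSd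
  have h1 : ∑ u, ∑ v ∈ univ.erase u, ∑ x ∈ Ω, (f x - cexpL Ω (lab u v) f x) ^ 2
      ≤ (1 / 8) * T4 Sd := by
    rw [T4_split Sd, Finset.mul_sum]
    apply Finset.sum_le_sum
    intro u _
    rw [Finset.mul_sum]
    apply Finset.sum_le_sum
    intro v hv
    have huv : u ≠ v := fun h => (Finset.mem_erase.mp hv).1 h.symm
    have hj := hJ u v huv f
    have h0 : 0 ≤ ∑ w, ∑ z, if D4 u v w z then C u v w z f else 0 :=
      Finset.sum_nonneg fun w _ => Finset.sum_nonneg fun z _ => by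
        split_ifs
        · exact hC0 u v w z f
        · exact le_refl _
    simp only [hSd]
    linarith
  have h2 : T4 Sd ≤ 8 * dirichlet Ω R f := by
    have e1 : ∀ u v w z, Sd u v w z
        = ∑ x ∈ Ω, ∑ y ∈ Ω, if B u v w z x y then (f x - f y) ^ 2 else 0 := by
      intro u v w z
      simp only [hSd]
      exact dirichlet_eq_ite Ω (B u v w z) f
    have e2 : T4 Sd = ∑ x ∈ Ω, ∑ y ∈ Ω,
        T4 (fun u v w z => if B u v w z x y then (f x - f y) ^ 2 else 0) := by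
      rw [show Sd = fun u v w z =>
          ∑ x ∈ Ω, ∑ y ∈ Ω, if B u v w z x y then (f x - f y) ^ 2 else 0 from
        funext fun u => funext fun v => funext fun w => funext fun z => e1 u v w z]
      rw [T4_sum]
      exact Finset.sum_congr rfl fun x _ => T4_sum Ω _
    rw [e2, dirichlet_eq_ite, Finset.mul_sum]
    apply Finset.sum_le_sum
    intro x hx
    rw [Finset.mul_sum]
    apply Finset.sum_le_sum
    intro y hy
    rw [T4_ite_mul]
    have hc := hcnt x hx y hy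
    by_cases hr : R x y
    · rw [if_pos hr] at hc ⊢
      exact mul_le_mul_of_nonneg_right hc (sq_nonneg _)
    · rw [if_neg hr] at hc ⊢
      have h0 : (0 : ℝ) ≤ ∑ u, ∑ v, ∑ w, ∑ z,
          if D4 u v w z ∧ B u v w z x y then (1 : ℝ) else 0 :=
        Finset.sum_nonneg fun u _ => Finset.sum_nonneg fun v _ =>
          Finset.sum_nonneg fun w _ => Finset.sum_nonneg fun z _ => by
            split_ifs <;> norm_num
      have : (∑ u, ∑ v, ∑ w, ∑ z,
          if D4 u v w z ∧ B u v w z x y then (1 : ℝ) else 0) = 0 := le_antisymm hc h0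
      rw [this]; simp
  linarith

open Classical in
/-- **Abstract glue.**  Triangle lemma, disjoint-pair inequality, Johnson inequality for the
charges, block count of a switch, kernel = constants, and the Caputo algebra `hcap`
give the Poincare inequality `4 * sqDev Ω f ≤ dirichlet Ω R f`. -/
theorem general_poincare_of_cap (Ω : Finset X) (lab : V → V → X → Λ) (R : X → X → Prop)
    (B : V → V → V → V → X → X → Prop) (C : V → V → V → V → (X → ℝ) → ℝ)
    (hcap : ∀ v : Ω → ℝ,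
      2 * ∑ a, ∑ b ∈ univ.erase a, v ⬝ᵥ (QG Ω lab a b *ᵥ v)
        ≤ ∑ a, ∑ b, ∑ c, ∑ d, (if D4 a b c d then
            (QG Ω lab a b *ᵥ v) ⬝ᵥ (QG Ω lab c d *ᵥ v) else 0) →
      4 * (v ⬝ᵥ (LG Ω lab *ᵥ v)) ≤ (LG Ω lab *ᵥ v) ⬝ᵥ (LG Ω lab *ᵥ v))
    (hpair : ∀ u v w z : V, D4 u v w z → ∀ f : X → ℝ,
      (1 / 2) * dirichlet Ω (B u v w z) f - C u v w z f - C w z u v f
        ≤ 2 * ∑ x ∈ Ω, (f x - cexpL Ω (lab u v) f x) * (f x - cexpL Ω (lab w z) f x))
    (hC0 : ∀ u v w z : V, ∀ f : X → ℝ, 0 ≤ C u v w z f)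
    (hJ : ∀ u v : V, u ≠ v → ∀ f : X → ℝ,
      (∑ w, ∑ z, if D4 u v w z then C u v w z f else 0)
        ≤ (1 / 4) * (∑ w, ∑ z, if D4 u v w z then dirichlet Ω (B u v w z) f else 0)
          - 2 * ∑ x ∈ Ω, (f x - cexpL Ω (lab u v) f x) ^ 2)
    (hcnt : ∀ x ∈ Ω, ∀ y ∈ Ω,
      (∑ u, ∑ v, ∑ w, ∑ z, if D4 u v w z ∧ B u v w z x y then (1 : ℝ) else 0)
        ≤ if R x y then 8 else 0)
    (hker : ∀ f : X → ℝ, (∀ u v : V, u ≠ v → ∀ x ∈ Ω, f x = cexpL Ω (lab u v) f x) →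
      ∀ x ∈ Ω, ∀ y ∈ Ω, f x = f y)
    (f : X → ℝ) :
    4 * sqDev Ω f ≤ dirichlet Ω R f := by
  set m : ℝ := (∑ y ∈ Ω, f y) / (Ω.card : ℝ) with hm
  set f0 : X → ℝ := fun x => f x - m with hf0
  have hmean : ∑ x ∈ Ω, f0 x = 0 := by
    rw [hf0, Finset.sum_sub_distrib, Finset.sum_const, nsmul_eq_mul]
    rcases Ω.eq_empty_or_nonempty with he | hne
    · rw [he]; simp
    · have hc : (0 : ℝ) < (Ω.card : ℝ) := by exact_mod_cast hne.card_pos
      rw [hm]; field_simp; ring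
  -- the squaring inequality with constant 4
  have hsq : ∀ v : Ω → ℝ, 4 * (v ⬝ᵥ (LG Ω lab *ᵥ v))
      ≤ (LG Ω lab *ᵥ v) ⬝ᵥ (LG Ω lab *ᵥ v) := by
    intro v
    apply hcap v
    rw [← vec_ext0 Ω v]
    set g := ext0 Ω v with hg
    have hA := disjoint_sum_ge Ω lab B C hpair hJ g
    have e1 : ∀ a b : V, vec Ω g ⬝ᵥ (QG Ω lab a b *ᵥ vec Ω g)
        = ∑ x ∈ Ω, (g x - cexpL Ω (lab a b) g x) ^ 2 := fun a b => QG_quad Ω lab a b g
    have e2 : ∀ a b c d : V, (QG Ω lab a b *ᵥ vec Ω g) ⬝ᵥ (QG Ω lab c d *ᵥ vec Ω g)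
        = ∑ x ∈ Ω, (g x - cexpL Ω (lab a b) g x) * (g x - cexpL Ω (lab c d) g x) :=
      fun a b c d => QG_cross Ω lab a b c d g
    simp only [e1, e2]
    exact hA
  -- the kernel consists of constants, hence is orthogonal to `f0`
  have hker' : ∀ g : Ω → ℝ, LG Ω lab *ᵥ g = 0 → vec Ω f0 ⬝ᵥ g = 0 := by
    intro g hg
    rw [← vec_ext0 Ω g] at hg ⊢
    set g' := ext0 Ω g with hg'
    have h0 : vec Ω g' ⬝ᵥ (LG Ω lab *ᵥ vec Ω g') = 0 := by
      rw [hg]; simp
    rw [LG_quad] at h0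
    have hnn : ∀ i ∈ (univ : Finset V), 0 ≤ ∑ j ∈ univ.erase i,
        ∑ x ∈ Ω, (g' x - cexpL Ω (lab i j) g' x) ^ 2 :=
      fun i _ => Finset.sum_nonneg fun j _ => Finset.sum_nonneg fun x _ => sq_nonneg _
    have h1 := (Finset.sum_eq_zero_iff_of_nonneg hnn).mp h0
    have hpairc : ∀ i j : V, i ≠ j → ∀ x ∈ Ω, g' x = cexpL Ω (lab i j) g' x := by
      intro i j hij x hx
      have h2 := h1 i (Finset.mem_univ i)
      have hnn2 : ∀ j ∈ univ.erase i, 0 ≤ ∑ x ∈ Ω,
          (g' x - cexpL Ω (lab i j) g' x) ^ 2 :=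
        fun j _ => Finset.sum_nonneg fun x _ => sq_nonneg _
      have h3 := (Finset.sum_eq_zero_iff_of_nonneg hnn2).mp h2 j
        (Finset.mem_erase.mpr ⟨fun h => hij h.symm, Finset.mem_univ j⟩)
      have h4 := (Finset.sum_eq_zero_iff_of_nonneg (fun x _ => sq_nonneg _)).mp h3 x hx
      have h5 := pow_eq_zero_iff (two_ne_zero) |>.mp h4
      linarith
    have hconst := hker g' hpairc
    rw [vec_dot]
    rcases Ω.eq_empty_or_nonempty with he | ⟨x0, hx0⟩
    · exact Finset.sum_eq_zero fun x hx => by rw [he] at hx; simp at hx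
    · have : ∀ x ∈ Ω, f0 x * g' x = f0 x * g' x0 :=
        fun x hx => by rw [hconst x hx x0 hx0]
      rw [Finset.sum_congr rfl this, ← Finset.sum_mul, hmean, zero_mul]
  have hpos : ∀ v : Ω → ℝ, 0 ≤ v ⬝ᵥ (LG Ω lab *ᵥ v) := by
    intro v
    rw [← vec_ext0 Ω v, LG_quad]
    exact Finset.sum_nonneg fun i _ => Finset.sum_nonneg fun j _ =>
      Finset.sum_nonneg fun x _ => sq_nonneg _
  have h := poincare_of_sq (LG Ω lab) (LG_transpose Ω lab) 4 (by norm_num) hpos hsq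
    (vec Ω f0) hker'
  rw [LG_quad, vec_dot] at h
  have hsqr : ∀ x ∈ Ω, f0 x * f0 x = f0 x ^ 2 := fun x _ => by ring
  rw [Finset.sum_congr rfl hsqr] at h
  have hB := pair_sum_le Ω lab R B C hC0 hJ hcnt f0
  have h5 : dirichlet Ω R f0 = dirichlet Ω R f := dirichlet_sub_const Ω _ f m
  have h6 : sqDev Ω f = ∑ x ∈ Ω, f0 x ^ 2 := rfl
  rw [h6, ← h5]
  linarith

open Classical in
/-- **Abstract glue, final form.**  Triangle lemma, disjoint-pair inequality, Johnson
inequality for the charges, block count of a switch and kernel = constants give the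
Poincare inequality `4 * sqDev Ω f ≤ dirichlet Ω R f`. -/
theorem general_poincare (Ω : Finset X) (lab : V → V → X → Λ) (R : X → X → Prop)
    (B : V → V → V → V → X → X → Prop) (C : V → V → V → V → (X → ℝ) → ℝ)
    (hsymm : ∀ u v (f : X → ℝ) (x : X), x ∈ Ω →
      cexpL Ω (lab u v) f x = cexpL Ω (lab v u) f x)
    (htri : ∀ u v w : V, u ≠ v → u ≠ w → v ≠ w → ∀ f : X → ℝ,
      ∑ x ∈ Ω, f x * (3 * f x - cexpL Ω (lab u v) f x - cexpL Ω (lab u w) f x
          - cexpL Ω (lab v w) f x)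
        ≤ ∑ x ∈ Ω, (3 * f x - cexpL Ω (lab u v) f x - cexpL Ω (lab u w) f x
          - cexpL Ω (lab v w) f x) ^ 2)
    (hpair : ∀ u v w z : V, D4 u v w z → ∀ f : X → ℝ,
      (1 / 2) * dirichlet Ω (B u v w z) f - C u v w z f - C w z u v f
        ≤ 2 * ∑ x ∈ Ω, (f x - cexpL Ω (lab u v) f x) * (f x - cexpL Ω (lab w z) f x))
    (hC0 : ∀ u v w z : V, ∀ f : X → ℝ, 0 ≤ C u v w z f)
    (hJ : ∀ u v : V, u ≠ v → ∀ f : X → ℝ,
      (∑ w, ∑ z, if D4 u v w z then C u v w z f else 0)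
        ≤ (1 / 4) * (∑ w, ∑ z, if D4 u v w z then dirichlet Ω (B u v w z) f else 0)
          - 2 * ∑ x ∈ Ω, (f x - cexpL Ω (lab u v) f x) ^ 2)
    (hcnt : ∀ x ∈ Ω, ∀ y ∈ Ω,
      (∑ u, ∑ v, ∑ w, ∑ z, if D4 u v w z ∧ B u v w z x y then (1 : ℝ) else 0)
        ≤ if R x y then 8 else 0)
    (hker : ∀ f : X → ℝ, (∀ u v : V, u ≠ v → ∀ x ∈ Ω, f x = cexpL Ω (lab u v) f x) →
      ∀ x ∈ Ω, ∀ y ∈ Ω, f x = f y)
    (f : X → ℝ) :
    4 * sqDev Ω f ≤ dirichlet Ω R f := by
  refine general_poincare_of_cap Ω lab R B C ?_ hpair hC0 hJ hcnt hker f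
  intro v hD
  exact Vale.Agent.Helper19.GenCaputo.gen_caputo_sq (QG Ω lab) (QG_symm Ω lab hsymm)
    (QG_transpose Ω lab) (QG_idem Ω lab)
    (fun i j k hij hik hjk w => QG_tri Ω lab htri hij hik hjk w) v hD

end Main

end G4

end KTV
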